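import Vale.Agent.P245.H48.Num

/-!
# Choice of the level and of the weights when the entropy is large

Sharper form of row NUM: the logarithm of the effective rank is replaced by
`log (1 + N * S / (S + E))` with `E` the entropy and `S` the mass.
-/

open Real

namespace Vale.Agent.P245.H662

theorem num2 {n : ℕ} (I : Fin n → ℝ) (h0 : ∀ i, 0 ≤ I i) (hI : 0 < ∑ i, I i)
    (C E S : ℝ) (hC : 0 ≤ C) (hS : 0 < S) (hE : 0 ≤ E)
    (h : ∀ (k : ℝ) (t : Fin n → ℝ), 1 ≤ k → (∀ i, 0 < t i ∧ t i ≤ 1) →
      E ≤ C * k * ∑ i, I i / t i + (1 + ∑ i, t i) * exp (-k) * S)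
    (hK : E ≤ C * (1 + log ((∑ i, √(I i)) ^ 2 / ∑ i, I i)) * ∑ i, I i) :
    E ≤ 16 * C * (1 + log (1 + (∑ i, √(I i)) ^ 2 / (∑ i, I i) * S / (S + E))) *
      ∑ i, I i := by
  obtain ⟨k0, t, hk0, hk1, ht, hIt, hst⟩ := Vale.Agent.P245.H48.num I h0 hI
  set J : ℝ := ∑ i, I i with hJ
  set N : ℝ := (∑ i, √(I i)) ^ 2 / J with hN
  have hlogN : 0 ≤ log N := by linarith
  have hN1 : 1 ≤ N := by
    by_contra hcon
    push Not at hcon
    have hNn : 0 ≤ N := by positivity
    rcases hNn.eq_or_lt with hz | hp
    · -- `N = 0` impossible since then `sum sqrt = 0`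
      have hz' : (∑ i, √(I i)) ^ 2 = 0 := by
        have := hz.symm
        rw [hN, div_eq_zero_iff] at this
        rcases this with h1 | h1
        · exact h1
        · linarith
      have hz2 : ∑ i, √(I i) = 0 := by
        simpa using hz'
      have hz3 : ∀ i, I i = 0 := by
        intro i
        have := (Finset.sum_eq_zero_iff_of_nonneg (fun i _ => sqrt_nonneg (I i))).1 hz2 i
          (Finset.mem_univ i)
        exact (sqrt_eq_zero (h0 i)).1 this
      have : J = 0 := by rw [hJ]; exact Finset.sum_eq_zero fun i _ => hz3 i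
      linarith
    · have := log_neg hp hcon
      linarith
  have hN0 : 0 < N := by linarith
  set x : ℝ := N * S / (S + E) with hx
  have hSE : 0 < S + E := by linarith
  have hx0 : 0 < x := by positivity
  have hlx : 0 ≤ log (1 + x) := log_nonneg (by linarith)
  have hCJ : 0 ≤ C * J := mul_nonneg hC hI.le
  have hgoal : E ≤ 16 * (C * J) * (1 + log (1 + x)) → E ≤ 16 * C * (1 + log (1 + x)) * J := by
    intro h1
    nlinarith [h1]
  apply hgoal
  rcases le_total E S with hc | hc
  · -- small entropy: the Poincare form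
    have hxN : N / 2 ≤ x := by
      rw [hx, div_le_div_iff₀ (by norm_num) hSE]
      nlinarith
    have h1 : log N ≤ 1 + log (1 + x) := by
      have h2 : N ≤ 2 * (1 + x) := by linarith
      have h3 : log N ≤ log (2 * (1 + x)) := log_le_log hN0 h2
      rw [log_mul (by norm_num) (by linarith)] at h3
      have h4 : log 2 ≤ 1 := by
        have := log_two_lt_d9
        linarith
      linarith
    have h5 : E ≤ (C * J) * (1 + log N) := by nlinarith [hK]
    have h6 : (C * J) * (1 + log N) ≤ (C * J) * (16 * (1 + log (1 + x))) :=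
      mul_le_mul_of_nonneg_left (by linarith) hCJ
    linarith
  · -- large entropy
    have hk : 1 ≤ 1 + log 8 + log (1 + x) := by
      have : 0 ≤ log 8 := log_nonneg (by norm_num)
      linarith
    have h1 := h (1 + log 8 + log (1 + x)) t hk ht
    -- the sum of the weights
    have hek : exp k0 = exp 1 * N := by
      rw [hk0, exp_add, exp_log hN0]
    have h2 : 1 + ∑ i, t i ≤ 2 * (exp 1 * N) := by
      have h3 : (1 + ∑ i, t i) * exp (-k0) * exp k0 ≤ 2 * exp k0 :=
        mul_le_mul_of_nonneg_right hst (exp_pos _).le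
      rw [mul_assoc, ← exp_add] at h3
      simp only [neg_add_cancel, exp_zero, mul_one] at h3
      rw [hek] at h3
      exact h3
    have h4 : exp (-(1 + log 8 + log (1 + x))) = (exp 1 * (8 * (1 + x)))⁻¹ := by
      rw [exp_neg, add_assoc, exp_add, exp_add, exp_log (by norm_num), exp_log (by linarith)]
    have h5 : (1 + ∑ i, t i) * exp (-(1 + log 8 + log (1 + x))) * S ≤ E / 2 := by
      rw [h4]
      have h6 : (1 + ∑ i, t i) * (exp 1 * (8 * (1 + x)))⁻¹ * S ≤
          2 * (exp 1 * N) * (exp 1 * (8 * (1 + x)))⁻¹ * S := by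
        gcongr
      have h7 : 2 * (exp 1 * N) * (exp 1 * (8 * (1 + x)))⁻¹ * S = N * S / (4 * (1 + x)) := by
        have he : exp 1 ≠ 0 := (exp_pos 1).ne'
        have hx1 : (1 : ℝ) + x ≠ 0 := by linarith
        field_simp
        ring
      have h8 : N * S / (4 * (1 + x)) ≤ (S + E) / 4 := by
        rw [div_le_div_iff₀ (by linarith) (by norm_num)]
        have h9 : N * S = x * (S + E) := by
          rw [hx]
          field_simp
        nlinarith
      linarith
    have h10 : C * (1 + log 8 + log (1 + x)) * ∑ i, I i / t i ≤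
        C * (1 + log 8 + log (1 + x)) * (2 * J) := by
      have : 0 ≤ C * (1 + log 8 + log (1 + x)) := mul_nonneg hC (by linarith)
      exact mul_le_mul_of_nonneg_left hIt this
    have h11 : E ≤ 4 * (C * J) * (1 + log 8 + log (1 + x)) := by nlinarith
    have h12 : log 8 ≤ 3 := by
      have : log 8 = 3 * log 2 := by
        rw [show (8 : ℝ) = 2 ^ 3 by norm_num, log_pow]
        norm_num
      have h2 := log_two_lt_d9
      linarith
    have h13 : 4 * (C * J) * (1 + log 8 + log (1 + x)) ≤ 16 * (C * J) * (1 + log (1 + x)) := by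
      have : (C * J) * (1 + log 8 + log (1 + x)) ≤ (C * J) * (4 * (1 + log (1 + x))) :=
        mul_le_mul_of_nonneg_left (by linarith) hCJ
      linarith
    linarith

end Vale.Agent.P245.H662
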